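import Mathlib
import Vale.Agent.H20.P205Base

open scoped ContDiff

namespace Vale.Agent.Results.P205.CircleSymmetricTori

/-- A smooth Riemannian metric on the closed surface `T² = ℝ²/ℤ²`, written on the plane: a
smooth field of symmetric positive definite bilinear forms which is `ℤ²`-periodic. -/
structure TorusMetric where
  g : ℝ × ℝ → ℝ × ℝ →L[ℝ] ℝ × ℝ →L[ℝ] ℝ
  smooth : ContDiff ℝ ∞ g
  symm : ∀ p v w, g p v w = g p w v
  pos : ∀ p v, v ≠ 0 → 0 < g p v v
  periodic : ∀ (p : ℝ × ℝ) (a b : ℤ), g (p + ((a : ℝ), (b : ℝ))) = g p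

/-- `Φ` is (the `ℤ²`-periodic lift to the plane of) a smooth isometric immersion of the torus with
metric `M` into Euclidean four-space. -/
def IsIsometricImmersion (M : TorusMetric) (Φ : ℝ × ℝ → Fin 4 → ℝ) : Prop :=
  ContDiff ℝ ∞ Φ ∧ (∀ (p : ℝ × ℝ) (a b : ℤ), Φ (p + ((a : ℝ), (b : ℝ))) = Φ p) ∧
    ∀ p v w, ∑ i, fderiv ℝ Φ p v i * fderiv ℝ Φ p w i = M.g p v w

lemma expand (M : TorusMetric) (p v w : ℝ × ℝ) :
    M.g p v w = v.1 * w.1 * M.g p (1, 0) (1, 0) + (v.1 * w.2 + v.2 * w.1) * M.g p (1, 0) (0, 1)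
      + v.2 * w.2 * M.g p (0, 1) (0, 1) := by
  have hv : v = v.1 • ((1:ℝ), (0:ℝ)) + v.2 • ((0:ℝ), (1:ℝ)) := by ext <;> simp
  have hw : w = w.1 • ((1:ℝ), (0:ℝ)) + w.2 • ((0:ℝ), (1:ℝ)) := by ext <;> simp
  conv_lhs => rw [hv, hw]
  simp only [map_add, map_smul, add_apply, smul_apply, smul_eq_mul]
  rw [M.symm p (0, 1) (1, 0)]
  ring

theorem base (M : TorusMetric) (hinv : ∀ (t : ℝ) (p : ℝ × ℝ), M.g (p + t • ((0:ℝ), (1:ℝ))) = M.g p) :
    ∃ Φ, IsIsometricImmersion M Φ := by
  have hline : ∀ a b : ℝ × ℝ, ContDiff ℝ ∞ fun x : ℝ => M.g (x, 0) a b := by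
    intro a b
    have h : ContDiff ℝ ∞ fun x : ℝ => M.g (x, 0) := M.smooth.comp (by fun_prop)
    exact (h.clm_apply contDiff_const).clm_apply contDiff_const
  have hper : ∀ x : ℝ, M.g (x + 1, 0) = M.g (x, 0) := by
    intro x
    have := M.periodic (x, 0) 1 0
    simpa using this
  have hG0 : ∀ x : ℝ, 0 < M.g (x, 0) (0, 1) (0, 1) := fun x => M.pos _ _ (by simp)
  have hdet : ∀ x : ℝ, 0 < M.g (x, 0) (1, 0) (1, 0) * M.g (x, 0) (0, 1) (0, 1)
      - M.g (x, 0) (1, 0) (0, 1) ^ 2 := by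
    intro x
    have h := M.pos (x, 0) (M.g (x, 0) (0, 1) (0, 1), - M.g (x, 0) (1, 0) (0, 1)) (by
      intro h; have := congrArg Prod.fst h; simp at this; exact (hG0 x).ne' this)
    rw [expand] at h
    simp only at h
    have e : (M.g (x, 0) (0, 1) (0, 1)) * (M.g (x, 0) (0, 1) (0, 1)) * M.g (x, 0) (1, 0) (1, 0)
        + (M.g (x, 0) (0, 1) (0, 1) * -M.g (x, 0) (1, 0) (0, 1)
          + -M.g (x, 0) (1, 0) (0, 1) * M.g (x, 0) (0, 1) (0, 1)) * M.g (x, 0) (1, 0) (0, 1)
        + -M.g (x, 0) (1, 0) (0, 1) * -M.g (x, 0) (1, 0) (0, 1) * M.g (x, 0) (0, 1) (0, 1)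
        = M.g (x, 0) (0, 1) (0, 1) * (M.g (x, 0) (1, 0) (1, 0) * M.g (x, 0) (0, 1) (0, 1)
      - M.g (x, 0) (1, 0) (0, 1) ^ 2) := by ring
    rw [e] at h
    exact (mul_pos_iff_of_pos_left (hG0 x)).1 h
  obtain ⟨N, r1, r2, φ1, φ2, k1, k2, s1, s2, s3, s4, pr1, pr2, q1, q2, e1, e2, e3⟩ :=
    Vale.Agent.H20.P205.core (fun x => M.g (x, 0) (1, 0) (1, 0)) (fun x => M.g (x, 0) (1, 0) (0, 1))
      (fun x => M.g (x, 0) (0, 1) (0, 1)) (hline _ _) (hline _ _) (hline _ _)
      (fun x => by simp only [hper x]) (fun x => by simp only [hper x]) (fun x => by simp only [hper x])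
      hG0 hdet
  refine ⟨Vale.Agent.H20.P205.Phi N r1 r2 φ1 φ2, Vale.Agent.H20.P205.Phi_smooth s1 s2 s3 s4,
    Vale.Agent.H20.P205.Phi_periodic pr1 pr2 q1 q2, ?_⟩
  intro p v w
  have hp : M.g p = M.g (p.1, 0) := by
    have := hinv p.2 (p.1, 0)
    simpa using this
  rw [expand, hp, ← e1 p.1, ← e2 p.1, ← e3 p.1, Vale.Agent.H20.P205.fderiv_Phi s1 s2 s3 s4,
    Vale.Agent.H20.P205.fderiv_Phi s1 s2 s3 s4]
  simp only [Fin.sum_univ_four, Matrix.cons_val_zero, Matrix.cons_val_one, Matrix.cons_val]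
  have c1 := Real.cos_sq_add_sin_sq (2 * Real.pi * (N * p.2 + φ1 p.1))
  have c2 := Real.cos_sq_add_sin_sq (2 * Real.pi * (N * p.2 + φ2 p.1))
  set C1 := Real.cos (2 * Real.pi * (N * p.2 + φ1 p.1))
  set S1 := Real.sin (2 * Real.pi * (N * p.2 + φ1 p.1))
  set C2 := Real.cos (2 * Real.pi * (N * p.2 + φ2 p.1))
  set S2 := Real.sin (2 * Real.pi * (N * p.2 + φ2 p.1))
  linear_combination (deriv r1 p.1 ^ 2 * v.1 * w.1 + r1 p.1 ^ 2 * (2 * Real.pi * (N * v.2 + deriv φ1 p.1 * v.1))
      * (2 * Real.pi * (N * w.2 + deriv φ1 p.1 * w.1))) * c1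
    + (deriv r2 p.1 ^ 2 * v.1 * w.1 + r2 p.1 ^ 2 * (2 * Real.pi * (N * v.2 + deriv φ2 p.1 * v.1))
      * (2 * Real.pi * (N * w.2 + deriv φ2 p.1 * w.1))) * c2

/-- the linear map with columns `u`, `w` -/
noncomputable def lin (u w : ℝ × ℝ) : ℝ × ℝ →L[ℝ] ℝ × ℝ :=
  (ContinuousLinearMap.fst ℝ ℝ ℝ).smulRight u + (ContinuousLinearMap.snd ℝ ℝ ℝ).smulRight w

lemma lin_apply (u w x : ℝ × ℝ) : lin u w x = (x.1 * u.1 + x.2 * w.1, x.1 * u.2 + x.2 * w.2) := by
  ext <;> simp [lin]

/-- transport by an integral unimodular change of coordinates -/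
theorem transport (M : TorusMetric) (u1 u2 w1 w2 : ℤ) (hdet : u1 * w2 - u2 * w1 = 1)
    (hinv : ∀ (t : ℝ) (p : ℝ × ℝ), M.g (p + t • ((w1 : ℝ), (w2 : ℝ))) = M.g p) :
    ∃ Φ, IsIsometricImmersion M Φ := by
  have hdR : (u1:ℝ) * w2 - u2 * w1 = 1 := by exact_mod_cast hdet
  set L := lin ((u1:ℝ), (u2:ℝ)) ((w1:ℝ), (w2:ℝ)) with hL
  set R := lin ((w2:ℝ), -(u2:ℝ)) (-(w1:ℝ), (u1:ℝ)) with hR
  have hLR : ∀ x, L (R x) = x := by
    intro x
    rw [hL, hR, lin_apply, lin_apply]
    ext
    · simp only; linear_combination x.1 * hdR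
    · simp only; linear_combination x.2 * hdR
  have hRL : ∀ x, R (L x) = x := by
    intro x
    rw [hL, hR, lin_apply, lin_apply]
    ext
    · simp only; linear_combination x.1 * hdR
    · simp only; linear_combination x.2 * hdR
  set A : (ℝ × ℝ →L[ℝ] ℝ) →L[ℝ] (ℝ × ℝ →L[ℝ] ℝ) :=
    (ContinuousLinearMap.compL ℝ (ℝ × ℝ) (ℝ × ℝ) ℝ).flip L with hA
  have hg' : ∀ p v w, (A.comp ((M.g (L p)).comp L)) v w = M.g (L p) (L v) (L w) := by
    intro p v w
    simp [hA]
  let M' : TorusMetric :=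
    { g := fun p => A.comp ((M.g (L p)).comp L)
      smooth := contDiff_const.clm_comp ((M.smooth.comp L.contDiff).clm_comp contDiff_const)
      symm := fun p v w => by rw [hg', hg', M.symm]
      pos := fun p v hv => by
        rw [hg']
        apply M.pos
        intro h
        apply hv
        rw [← hRL v, h, map_zero]
      periodic := fun p a b => by
        have : L (p + ((a:ℝ), (b:ℝ))) = L p + (((a * u1 + b * w1 : ℤ) : ℝ), ((a * u2 + b * w2 : ℤ) : ℝ)) := by
          rw [map_add]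
          congr 1
          rw [hL, lin_apply]
          push_cast
          rfl
        rw [this, M.periodic] }
  obtain ⟨Φ, h1, h2, h3⟩ := base M' (by
    intro t p
    have : L (p + t • ((0:ℝ), (1:ℝ))) = L p + t • ((w1:ℝ), (w2:ℝ)) := by
      rw [map_add, map_smul]
      congr 2
      rw [hL, lin_apply]
      simp
    change A.comp ((M.g (L (p + t • ((0:ℝ), (1:ℝ))))).comp L) = A.comp ((M.g (L p)).comp L)
    rw [this, hinv])
  refine ⟨fun x => Φ (R x), h1.comp R.contDiff, ?_, ?_⟩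
  · intro p a b
    have : R (p + ((a:ℝ), (b:ℝ))) = R p + (((a * w2 - b * w1 : ℤ) : ℝ), ((b * u1 - a * u2 : ℤ) : ℝ)) := by
      rw [map_add]
      congr 1
      rw [hR, lin_apply]
      push_cast
      ext <;> simp only <;> ring
    simp only [this, h2]
  · intro p v w
    have hd : DifferentiableAt ℝ Φ (R p) := (h1.differentiable (by simp)) _
    have hf : fderiv ℝ (fun x => Φ (R x)) p = (fderiv ℝ Φ (R p)).comp R := by
      have := fderiv_comp p hd R.differentiableAt
      rw [R.fderiv] at this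
      exact this
    rw [hf]
    have h4 := h3 (R p) (R v) (R w)
    have h5 : M'.g (R p) (R v) (R w) = M.g p v w := by
      change (A.comp ((M.g (L (R p))).comp L)) (R v) (R w) = _
      rw [hg', hLR, hLR, hLR]
    rw [← h5, ← h4]
    rfl

/-- **Result.** Every smooth Riemannian metric on the torus `ℝ²/ℤ²` which is invariant under some
nontrivial one-parameter group of translations admits a smooth isometric immersion into
Euclidean four-space. -/
theorem result (M : TorusMetric) (ξ : ℝ × ℝ) (hξ : ξ ≠ 0)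
    (hinv : ∀ (t : ℝ) (p : ℝ × ℝ), M.g (p + t • ξ) = M.g p) :
    ∃ Φ : ℝ × ℝ → Fin 4 → ℝ, IsIsometricImmersion M Φ := by
  -- rational directions
  have rat : ∀ (a b : ℤ), (a, b) ≠ (0, 0) →
      (∀ (t : ℝ) (p : ℝ × ℝ), M.g (p + t • ((a:ℝ), (b:ℝ))) = M.g p) →
      ∃ Φ : ℝ × ℝ → Fin 4 → ℝ, IsIsometricImmersion M Φ := by
    intro a b hab h
    have hg : 0 < Int.gcd a b := by
      rw [Int.gcd_pos_iff]
      by_contra hc
      push Not at hc
      exact hab (by rw [hc.1, hc.2])
    obtain ⟨a', ha'⟩ := Int.gcd_dvd_left a b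
    obtain ⟨b', hb'⟩ := Int.gcd_dvd_right a b
    set d : ℤ := (Int.gcd a b : ℤ) with hd
    have hd0 : 0 < d := by rw [hd]; exact_mod_cast hg
    have hbez := Int.gcd_eq_gcd_ab a b
    rw [← hd] at hbez
    have hbez' : a' * Int.gcdA a b + b' * Int.gcdB a b = 1 := by
      have : d * (a' * Int.gcdA a b + b' * Int.gcdB a b) = d * 1 := by
        calc d * (a' * Int.gcdA a b + b' * Int.gcdB a b)
            = (d * a') * Int.gcdA a b + (d * b') * Int.gcdB a b := by ring
          _ = a * Int.gcdA a b + b * Int.gcdB a b := by rw [← ha', ← hb']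
          _ = d * 1 := by rw [mul_one]; exact hbez.symm
      exact mul_left_cancel₀ hd0.ne' this
    apply transport M (Int.gcdB a b) (-Int.gcdA a b) a' b' (by linear_combination hbez')
    intro t p
    have hd0' : (d:ℝ) ≠ 0 := by exact_mod_cast hd0.ne'
    have := h (t / d) p
    have e : (t / d) • ((a:ℝ), (b:ℝ)) = t • ((a':ℝ), (b':ℝ)) := by
      have ha'' : (a:ℝ) = d * a' := by exact_mod_cast ha'
      have hb'' : (b:ℝ) = d * b' := by exact_mod_cast hb'
      rw [ha'', hb'']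
      ext
      · simp only [Prod.smul_mk, smul_eq_mul]; field_simp
      · simp only [Prod.smul_mk, smul_eq_mul]; field_simp
    rwa [e] at this
  by_cases h1 : ξ.1 = 0
  · have h2 : ξ.2 ≠ 0 := by
      intro h2; exact hξ (Prod.ext h1 h2)
    apply rat 0 1 (by simp)
    intro t p
    have e : t • (((0:ℤ):ℝ), ((1:ℤ):ℝ)) = (t / ξ.2) • ξ := by
      ext
      · simp [h1]
      · simp; field_simp
    rw [e, hinv]
  by_cases hirr : Irrational (ξ.2 / ξ.1)
  · apply rat 0 1 (by simp)
    -- the invariance is closed and holds on a dense subgroup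
    have hsub : ∀ s ∈ AddSubgroup.closure {ξ.2 / ξ.1, (1:ℝ)}, ∀ p : ℝ × ℝ,
        M.g (p + (0, s)) = M.g p := by
      intro s hs
      induction hs using AddSubgroup.closure_induction with
      | mem x hx =>
        intro p
        rcases hx with rfl | hx
        · have h3 := M.periodic (p + (0, ξ.2 / ξ.1)) 1 0
          have e : p + (0, ξ.2 / ξ.1) + (((1:ℤ):ℝ), ((0:ℤ):ℝ)) = p + (1 / ξ.1) • ξ := by
            rw [add_assoc]
            congr 1
            ext
            · simp [h1]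
            · simp; field_simp
          rw [e, hinv] at h3
          exact h3.symm
        · rw [Set.mem_singleton_iff] at hx
          subst hx
          have h3 := M.periodic p 0 1
          simpa using h3
      | zero =>
        intro p
        have e : p + ((0:ℝ), (0:ℝ)) = p := by ext <;> simp
        exact congrArg M.g e
      | add x y _ _ hx hy =>
        intro p
        have e : p + (0, x + y) = (p + (0, x)) + (0, y) := by
          rw [add_assoc]; congr 1; ext
          · simp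
          · rfl
        rw [e, hy, hx]
      | neg x _ hx =>
        intro p
        have := hx (p + (0, -x))
        have e : p + (0, -x) + (0, x) = p := by
          ext <;> simp
        rw [e] at this
        exact this.symm
    have hdense := dense_addSubgroupClosure_pair_iff.2 (show Irrational ((ξ.2 / ξ.1) / 1) by simpa using hirr)
    intro t p
    have hcont : Continuous fun s : ℝ => M.g (p + (0, s)) := M.smooth.continuous.comp (by fun_prop)
    have hext : (fun s : ℝ => M.g (p + (0, s))) = fun _ => M.g p :=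
      Continuous.ext_on hdense hcont continuous_const (fun s hs => hsub s hs p)
    have h6 : M.g (p + (0, t)) = M.g p := congrFun hext t
    rw [← h6]
    congr 2
    ext <;> simp
  · unfold Irrational at hirr
    push Not at hirr
    obtain ⟨q, hq⟩ := hirr
    apply rat q.den q.num (by simp)
    intro t p
    have hden : (q.den : ℝ) ≠ 0 := by exact_mod_cast q.den_nz
    have hq2 : ξ.2 * q.den = q.num * ξ.1 := by
      have h5 : (q:ℝ) = (q.num:ℝ) / (q.den:ℝ) := by exact_mod_cast (Rat.num_div_den q).symm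
      rw [h5] at hq
      field_simp at hq
      linarith
    have e : t • (((q.den:ℤ):ℝ), ((q.num:ℤ):ℝ)) = (t * q.den / ξ.1) • ξ := by
      ext
      · simp; field_simp
      · simp; field_simp; linear_combination (-t) * hq2
    rw [e, hinv]

end Vale.Agent.Results.P205.CircleSymmetricTori
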